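import Mathlib
import Vale.Agent.P207.H558.Tele

/-!
# P207, line N4: separately smooth with uniform bounds implies jointly smooth
-/

open Set Filter Topology Metric
open scoped ContDiff

noncomputable section

namespace Vale.Agent.P207.H547.Joint

universe u

variable {E F G H : Type u} [NormedAddCommGroup E] [NormedSpace ℝ E] [NormedAddCommGroup F]
  [NormedSpace ℝ F] [NormedAddCommGroup G] [NormedSpace ℝ G] [NormedAddCommGroup H]
  [NormedSpace ℝ H]

/-- `g` is smooth on the ball with the bounds `M`. -/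
def Bd (g : E → G) (c : E) (R : ℝ) (M : ℕ → ℝ) : Prop :=
  ContDiffOn ℝ ∞ g (ball c R) ∧ ∀ k, ∀ x ∈ ball c R, ‖iteratedFDeriv ℝ k g x‖ ≤ M k

namespace Bd

variable {g g' : E → G} {c : E} {R r : ℝ} {M M' : ℕ → ℝ}

lemma at' (h : Bd g c R M) {x : E} (hx : x ∈ ball c R) (n : ℕ) : ContDiffAt ℝ n g x :=
  (h.1.contDiffAt (isOpen_ball.mem_nhds hx)).of_le (by exact_mod_cast le_top)

lemma mono (h : Bd g c R M) (hr : r ≤ R) : Bd g c r M :=
  ⟨h.1.mono (ball_subset_ball hr), fun k x hx => h.2 k x (ball_subset_ball hr hx)⟩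

lemma le (h : Bd g c R M) (hM : ∀ k, M k ≤ M' k) : Bd g c R M' :=
  ⟨h.1, fun k x hx => (h.2 k x hx).trans (hM k)⟩

lemma add (h : Bd g c R M) (h' : Bd g' c R M') :
    Bd (fun x => g x + g' x) c R (fun k => M k + M' k) := by
  refine ⟨h.1.add h'.1, fun k x hx => ?_⟩
  have e := iteratedFDeriv_add_apply (h.at' hx k) (h'.at' hx k)
  have e2 : (fun x => g x + g' x) = g + g' := rfl
  rw [e2, e]
  exact (norm_add_le _ _).trans (add_le_add (h.2 k x hx) (h'.2 k x hx))

lemma neg (h : Bd g c R M) : Bd (fun x => -g x) c R M := by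
  refine ⟨h.1.neg, fun k x hx => ?_⟩
  have e2 : (fun x => -g x) = -g := rfl
  rw [e2, iteratedFDeriv_neg_apply, norm_neg]
  exact h.2 k x hx

lemma sub (h : Bd g c R M) (h' : Bd g' c R M') :
    Bd (fun x => g x - g' x) c R (fun k => M k + M' k) := by
  have := h.add h'.neg
  simpa only [sub_eq_add_neg] using this

lemma clm (h : Bd g c R M) (L : G →L[ℝ] H) : Bd (fun x => L (g x)) c R (fun k => ‖L‖ * M k) := by
  refine ⟨L.contDiff.comp_contDiffOn h.1, fun k x hx => ?_⟩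
  have := L.norm_iteratedFDeriv_comp_left (h.at' hx k) (le_refl (k : ℕ∞ω))
  exact this.trans (mul_le_mul_of_nonneg_left (h.2 k x hx) (norm_nonneg _))

lemma smul (h : Bd g c R M) (a : ℝ) : Bd (fun x => a • g x) c R (fun k => |a| * M k) := by
  refine ⟨h.1.const_smul a, fun k x hx => ?_⟩
  have e2 : (fun x => a • g x) = a • g := rfl
  rw [e2, iteratedFDeriv_const_smul_apply (h.at' hx k), norm_smul, Real.norm_eq_abs]
  exact mul_le_mul_of_nonneg_left (h.2 k x hx) (abs_nonneg _)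

lemma zero : Bd (fun _ : E => (0 : G)) c R (fun _ => 0) := by
  refine ⟨contDiffOn_const, fun k x _ => ?_⟩
  have : iteratedFDeriv ℝ k (fun _ : E => (0 : G)) = 0 := iteratedFDeriv_fun_zero
  rw [this]; simp

lemma sum {ι : Type*} (s : Finset ι) {g : ι → E → G} {M : ι → ℕ → ℝ}
    (h : ∀ i ∈ s, Bd (g i) c R (M i)) :
    Bd (fun x => ∑ i ∈ s, g i x) c R (fun k => ∑ i ∈ s, M i k) := by
  classical
  induction s using Finset.induction_on with
  | empty => simpa using (zero : Bd (fun _ : E => (0 : G)) c R (fun _ => 0))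
  | insert a s ha ih =>
    have h1 := h a (Finset.mem_insert_self a s)
    have h2 := ih fun i hi => h i (Finset.mem_insert_of_mem hi)
    simpa only [Finset.sum_insert ha] using h1.add h2

lemma fderiv (h : Bd g c R M) : Bd (_root_.fderiv ℝ g) c R (fun k => M (k + 1)) := by
  refine ⟨h.1.fderiv_of_isOpen isOpen_ball (by simp), fun k x hx => ?_⟩
  rw [norm_iteratedFDeriv_fderiv]
  exact h.2 (k + 1) x hx

lemma differentiableAt (h : Bd g c R M) {x : E} (hx : x ∈ ball c R) : DifferentiableAt ℝ g x :=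
  (h.at' hx 1).differentiableAt (by norm_num)

lemma lip (h : Bd g c R M) {x y : E} (hx : x ∈ ball c R) (hy : y ∈ ball c R) :
    ‖g x - g y‖ ≤ M 1 * ‖x - y‖ := by
  refine (convex_ball c R).norm_image_sub_le_of_norm_fderiv_le
    (fun z hz => h.differentiableAt hz) (fun z hz => ?_) hy hx
  rw [← norm_iteratedFDeriv_one]
  exact h.2 1 z hz

/-- first order Taylor expansion -/
lemma taylor (h : Bd g c R M) {y w : E} (hy : closedBall y ‖w‖ ⊆ ball c R) :
    ‖g (y + w) - g y - _root_.fderiv ℝ g y w‖ ≤ M 2 * ‖w‖ * ‖w‖ := by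
  have hy0 : y ∈ ball c R := hy (mem_closedBall_self (norm_nonneg _))
  have hM : 0 ≤ M 2 := (norm_nonneg _).trans (h.2 2 y hy0)
  have key := (convex_closedBall y ‖w‖).norm_image_sub_le_of_norm_hasFDerivWithin_le'
    (f := g) (f' := _root_.fderiv ℝ g) (φ := _root_.fderiv ℝ g y) (C := M 2 * ‖w‖)
    (x := y) (y := y + w)
    (fun z hz => (h.differentiableAt (hy hz)).hasFDerivAt.hasFDerivWithinAt)
    (fun z hz => ?_) (mem_closedBall_self (norm_nonneg _)) (by simp)
  · simpa using key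
  · refine (h.fderiv.lip (hy hz) hy0).trans ?_
    refine mul_le_mul_of_nonneg_left ?_ hM
    simpa [dist_eq_norm] using hz

end Bd

/-- `f` is separately smooth on the product of the balls, with the bounds `M`. -/
def Sep (f : E × F → G) (a : E) (b : F) (R : ℝ) (M : ℕ → ℝ) : Prop :=
  (∀ y ∈ ball b R, Bd (fun x => f (x, y)) a R M) ∧ ∀ x ∈ ball a R, Bd (fun y => f (x, y)) b R M

namespace Sep

variable {f f' : E × F → G} {a : E} {b : F} {R r : ℝ} {M M' : ℕ → ℝ}

lemma mono (h : Sep f a b R M) (hr : r ≤ R) : Sep f a b r M :=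
  ⟨fun y hy => (h.1 y (ball_subset_ball hr hy)).mono hr,
    fun x hx => (h.2 x (ball_subset_ball hr hx)).mono hr⟩

lemma le (h : Sep f a b R M) (hM : ∀ k, M k ≤ M' k) : Sep f a b R M' :=
  ⟨fun y hy => (h.1 y hy).le hM, fun x hx => (h.2 x hx).le hM⟩

lemma add (h : Sep f a b R M) (h' : Sep f' a b R M') :
    Sep (fun p => f p + f' p) a b R (fun k => M k + M' k) :=
  ⟨fun y hy => (h.1 y hy).add (h'.1 y hy), fun x hx => (h.2 x hx).add (h'.2 x hx)⟩

lemma clm (h : Sep f a b R M) (L : G →L[ℝ] H) :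
    Sep (fun p => L (f p)) a b R (fun k => ‖L‖ * M k) :=
  ⟨fun y hy => (h.1 y hy).clm L, fun x hx => (h.2 x hx).clm L⟩

lemma swap (h : Sep f a b R M) : Sep (fun p : F × E => f (p.2, p.1)) b a R M :=
  ⟨h.2, h.1⟩

omit [NormedSpace ℝ E] [NormedSpace ℝ F] in
lemma mem_ball {p : E × F} (hp : p ∈ ball (a, b) R) : p.1 ∈ ball a R ∧ p.2 ∈ ball b R := by
  rw [← ball_prod_same] at hp
  exact hp

lemma continuousAt (h : Sep f a b R M) {p : E × F} (hp : p ∈ ball (a, b) R) :
    ContinuousAt f p := by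
  obtain ⟨h1, h2⟩ := mem_ball hp
  have hM : 0 ≤ M 1 := (norm_nonneg _).trans ((h.1 p.2 h2).2 1 p.1 h1)
  rw [ContinuousAt, tendsto_iff_norm_sub_tendsto_zero]
  have hb : Tendsto (fun q : E × F => M 1 * ‖q.1 - p.1‖ + M 1 * ‖q.2 - p.2‖) (𝓝 p) (𝓝 0) := by
    have : Continuous fun q : E × F => M 1 * ‖q.1 - p.1‖ + M 1 * ‖q.2 - p.2‖ := by fun_prop
    have := this.tendsto p
    simpa using this
  refine squeeze_zero' (Eventually.of_forall fun _ => norm_nonneg _) ?_ hb
  filter_upwards [isOpen_ball.mem_nhds hp] with q hq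
  obtain ⟨q1, q2⟩ := mem_ball hq
  have e : f q - f p = (f (q.1, q.2) - f (p.1, q.2)) + (f (p.1, q.2) - f (p.1, p.2)) := by
    simp
  rw [e]
  exact (norm_add_le _ _).trans (add_le_add ((h.1 q.2 q2).lip q1 h1) ((h.2 p.1 h1).lip q2 h2))

end Sep

/-- the partial derivative in the second variable -/
def d2 (f : E × F → G) (p : E × F) : F →L[ℝ] G := fderiv ℝ (fun y => f (p.1, y)) p.2

/-- the partial derivative in the first variable -/
def d1 (f : E × F → G) (p : E × F) : E →L[ℝ] G := fderiv ℝ (fun x => f (x, p.2)) p.1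

/-- the statement `tele` (558) with `p = 1`, `θ = 1`, `t₀ = 1` -/
def Tele (E G : Type u) [NormedAddCommGroup E] [NormedSpace ℝ E] [NormedAddCommGroup G]
    [NormedSpace ℝ G] : Prop :=
  ∀ (M : ℕ → ℝ) (C t₀ r R : ℝ), 0 < t₀ → r < R → ∃ K : ℕ → ℝ, ∀ (Y : E → G) (c : E),
    (∀ t ∈ Ioo 0 t₀, ∃ Φ : E → G, Bd Φ c R (fun k => M k * t⁻¹) ∧
      ∀ x ∈ ball c R, ‖Y x - Φ x‖ ≤ C * t) → Bd Y c r K

section main

variable [FiniteDimensional ℝ F]

/-- `G → (F → G)`, `g ↦ e_i^* ⊗ g` -/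
def Lc (F G : Type u) [NormedAddCommGroup F] [NormedSpace ℝ F] [NormedAddCommGroup G]
    [NormedSpace ℝ G] [FiniteDimensional ℝ F] (i : Fin (Module.finrank ℝ F)) :
    G →L[ℝ] F →L[ℝ] G :=
  ContinuousLinearMap.smulRightL ℝ F G
    (LinearMap.toContinuousLinearMap ((Module.finBasis ℝ F).coord i))

lemma Lc_apply (i : Fin (Module.finrank ℝ F)) (g : G) (v : F) :
    Lc F G i g v = (Module.finBasis ℝ F).coord i v • g := rfl

lemma sum_Lc (T : F →L[ℝ] G) : T = ∑ i, Lc F G i (T (Module.finBasis ℝ F i)) := by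
  ext v
  rw [sum_apply]
  simp only [Lc_apply]
  conv_lhs => rw [← (Module.finBasis ℝ F).sum_repr v]
  rw [map_sum]
  simp

/-- the partial derivative in the second variable is separately smooth -/
theorem sep_d2 (hT : Tele E (F →L[ℝ] G)) (M : ℕ → ℝ) {r R : ℝ} (hr : r < R) :
    ∃ K : ℕ → ℝ, ∀ (f : E × F → G) (a : E) (b : F), Sep f a b R M → Sep (d2 f) a b r K := by
  classical
  set e := fun i => Module.finBasis ℝ F i with he
  set m : ℝ := 1 + ∑ i, ‖e i‖ with hm
  have hm1 : ∀ i, ‖e i‖ ≤ m := fun i =>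
    (Finset.single_le_sum (f := fun i => ‖e i‖) (fun _ _ => norm_nonneg _)
      (Finset.mem_univ i)).trans (by rw [hm]; linarith)
  have hm0 : 0 < m := by
    rw [hm]
    have : 0 ≤ ∑ i, ‖e i‖ := Finset.sum_nonneg fun _ _ => norm_nonneg _
    linarith
  obtain ⟨K, hK⟩ := hT (fun k => ∑ i, ‖Lc F G i‖ * (2 * M k)) (∑ i, ‖Lc F G i‖ * (M 2 * m * m))
    ((R - r) / m) r R (div_pos (by linarith) hm0) hr
  refine ⟨fun k => max (K k) (M (k + 1)), fun f a b h => ⟨fun y hy => ?_, fun x hx => ?_⟩⟩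
  · refine (hK (fun x => d2 f (x, y)) a fun t ht => ?_).le fun k => le_max_left _ _
    have ht0 : 0 < t := ht.1
    have htm : t * m < R - r := by
      have := ht.2
      rwa [lt_div_iff₀ hm0] at this
    have hye : ∀ i, closedBall y ‖t • e i‖ ⊆ ball b R := by
      intro i z hz
      rw [norm_smul, Real.norm_eq_abs, abs_of_pos ht0, mem_closedBall] at hz
      rw [mem_ball] at hy ⊢
      have := mul_le_mul_of_nonneg_left (hm1 i) ht0.le
      linarith [dist_triangle z y b]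
    have hyR : y ∈ ball b R := ball_subset_ball hr.le hy
    have hye' : ∀ i, y + t • e i ∈ ball b R := fun i => hye i (by simp)
    refine ⟨fun x => ∑ i, Lc F G i (t⁻¹ • (f (x, y + t • e i) - f (x, y))), ?_, ?_⟩
    · have := Bd.sum (c := a) (R := R) Finset.univ
        (g := fun i x => Lc F G i (t⁻¹ • (f (x, y + t • e i) - f (x, y))))
        (M := fun i k => ‖Lc F G i‖ * (|t⁻¹| * (M k + M k))) fun i _ =>
        ((((h.1 _ (hye' i)).sub (h.1 _ hyR)).smul t⁻¹).clm (Lc F G i))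
      refine this.le fun k => le_of_eq ?_
      rw [Finset.sum_mul]
      refine Finset.sum_congr rfl fun i _ => ?_
      rw [abs_of_pos (inv_pos.2 ht0)]
      ring
    · intro x hx
      rw [sum_Lc (d2 f (x, y)), ← Finset.sum_sub_distrib]
      refine (norm_sum_le _ _).trans ?_
      rw [Finset.sum_mul]
      refine Finset.sum_le_sum fun i _ => ?_
      rw [← map_sub]
      refine ((Lc F G i).le_opNorm _).trans ?_
      rw [mul_assoc]
      refine mul_le_mul_of_nonneg_left ?_ (norm_nonneg _)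
      have ht' := (h.2 x hx).taylor (hye i)
      have hM2 : 0 ≤ M 2 := (norm_nonneg _).trans ((h.2 x hx).2 2 y hyR)
      have e1 : d2 f (x, y) (e i) - t⁻¹ • (f (x, y + t • e i) - f (x, y))
          = -(t⁻¹ • (f (x, y + t • e i) - f (x, y) - fderiv ℝ (fun y => f (x, y)) y (t • e i))) := by
        have aux : ∀ A D : G, D - t⁻¹ • A = -(t⁻¹ • (A - t • D)) := by
          intro A D
          rw [smul_sub, smul_smul, inv_mul_cancel₀ ht0.ne', one_smul, neg_sub]
        rw [map_smul]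
        exact aux _ _
      have e2 : (Module.finBasis ℝ F) i = e i := rfl
      rw [e2, e1, norm_neg, norm_smul, norm_inv, Real.norm_eq_abs, abs_of_pos ht0]
      rw [inv_mul_le_iff₀ ht0]
      refine ht'.trans ?_
      rw [norm_smul, Real.norm_eq_abs, abs_of_pos ht0]
      have : ‖e i‖ * ‖e i‖ ≤ m * m := mul_self_le_mul_self (norm_nonneg _) (hm1 i)
      calc M 2 * (t * ‖e i‖) * (t * ‖e i‖) = M 2 * t * t * (‖e i‖ * ‖e i‖) := by ring
        _ ≤ M 2 * t * t * (m * m) := mul_le_mul_of_nonneg_left this (by positivity)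
        _ = t * (M 2 * m * m * t) := by ring
  · exact ((h.2 x (ball_subset_ball hr.le hx)).fderiv.mono hr.le).le fun k => le_max_right _ _

end main

section main1

variable [FiniteDimensional ℝ E] [FiniteDimensional ℝ F]

omit [FiniteDimensional ℝ F] in
/-- the partial derivative in the first variable is separately smooth -/
theorem sep_d1 (hT : Tele F (E →L[ℝ] G)) (M : ℕ → ℝ) {r R : ℝ} (hr : r < R) :
    ∃ K : ℕ → ℝ, ∀ (f : E × F → G) (a : E) (b : F), Sep f a b R M → Sep (d1 f) a b r K := by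
  obtain ⟨K, hK⟩ := sep_d2 (E := F) (F := E) (G := G) hT M hr
  exact ⟨K, fun f a b h => (hK _ b a h.swap).swap⟩

/-- the total derivative -/
def dd (f : E × F → G) (p : E × F) : E × F →L[ℝ] G := (d1 f p).coprod (d2 f p)

/-- the map `L ↦ L ∘ fst` -/
def A1 (E F G : Type u) [NormedAddCommGroup E] [NormedSpace ℝ E] [NormedAddCommGroup F]
    [NormedSpace ℝ F] [NormedAddCommGroup G] [NormedSpace ℝ G] : (E →L[ℝ] G) →L[ℝ] (E × F →L[ℝ] G) :=
  (ContinuousLinearMap.compL ℝ (E × F) E G).flip (ContinuousLinearMap.fst ℝ E F)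

/-- the map `L ↦ L ∘ snd` -/
def A2 (E F G : Type u) [NormedAddCommGroup E] [NormedSpace ℝ E] [NormedAddCommGroup F]
    [NormedSpace ℝ F] [NormedAddCommGroup G] [NormedSpace ℝ G] : (F →L[ℝ] G) →L[ℝ] (E × F →L[ℝ] G) :=
  (ContinuousLinearMap.compL ℝ (E × F) F G).flip (ContinuousLinearMap.snd ℝ E F)

omit [FiniteDimensional ℝ E] [FiniteDimensional ℝ F] in
lemma dd_eq (f : E × F → G) : dd f = fun p => A1 E F G (d1 f p) + A2 E F G (d2 f p) := by
  funext p
  ext v <;> simp [dd, A1, A2]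

theorem sep_dd (hT : Tele E (F →L[ℝ] G)) (hT' : Tele F (E →L[ℝ] G)) (M : ℕ → ℝ) {r R : ℝ}
    (hr : r < R) :
    ∃ K : ℕ → ℝ, ∀ (f : E × F → G) (a : E) (b : F), Sep f a b R M → Sep (dd f) a b r K ∧
      ∀ p ∈ ball (a, b) r, HasFDerivAt f (dd f p) p := by
  obtain ⟨K1, hK1⟩ := sep_d1 (G := G) hT' M hr
  obtain ⟨K2, hK2⟩ := sep_d2 (G := G) hT M hr
  refine ⟨fun k => ‖A1 E F G‖ * K1 k + ‖A2 E F G‖ * K2 k, fun f a b h => ⟨?_, fun p hp => ?_⟩⟩
  · rw [dd_eq]
    exact ((hK1 f a b h).clm (A1 E F G)).add ((hK2 f a b h).clm (A2 E F G))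
  · have c1 := (hK1 f a b h).continuousAt hp
    have c2 := (hK2 f a b h).continuousAt hp
    have key := hasStrictFDerivAt_uncurry_coprod (𝕜 := ℝ) (u := p) (f := fun x y => f (x, y))
      (f₁ := fun x y => d1 f (x, y)) (f₂ := fun x y => d2 f (x, y)) ?_ ?_ c1 c2
    · exact key.hasFDerivAt
    · filter_upwards [isOpen_ball.mem_nhds (ball_subset_ball hr.le hp)] with q hq
      obtain ⟨q1, q2⟩ := Sep.mem_ball hq
      exact ((h.1 q.2 q2).differentiableAt q1).hasFDerivAt
    · filter_upwards [isOpen_ball.mem_nhds (ball_subset_ball hr.le hp)] with q hq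
      obtain ⟨q1, q2⟩ := Sep.mem_ball hq
      exact ((h.2 q.1 q1).differentiableAt q2).hasFDerivAt

/-- separately smooth with uniform bounds implies jointly smooth with uniform bounds: one order -/
theorem joint_n (hT : ∀ G : Type u, ∀ [NormedAddCommGroup G] [NormedSpace ℝ G] [CompleteSpace G],
      Tele E G)
    (hT' : ∀ G : Type u, ∀ [NormedAddCommGroup G] [NormedSpace ℝ G] [CompleteSpace G], Tele F G)
    (n : ℕ) : ∀ (G : Type u) [NormedAddCommGroup G] [NormedSpace ℝ G] [CompleteSpace G]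
    (M : ℕ → ℝ) (r R : ℝ) (_ : r < R), ∃ K : ℝ, ∀ (f : E × F → G) (a : E) (b : F),
      Sep f a b R M → ContDiffOn ℝ n f (ball (a, b) r) ∧
        ∀ p ∈ ball (a, b) r, ‖iteratedFDeriv ℝ n f p‖ ≤ K := by
  induction n with
  | zero =>
    intro G _ _ _ M r R hr
    refine ⟨M 0, fun f a b h => ⟨?_, fun p hp => ?_⟩⟩
    · rw [Nat.cast_zero, contDiffOn_zero]
      exact fun p hp => (h.continuousAt (ball_subset_ball hr.le hp)).continuousWithinAt
    · obtain ⟨p1, p2⟩ := Sep.mem_ball (ball_subset_ball hr.le hp)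
      have := (h.1 p.2 p2).2 0 p.1 p1
      rw [norm_iteratedFDeriv_zero] at this ⊢
      exact this
  | succ n ih =>
    intro G _ _ _ M r R hr
    have h1 : r < (r + R) / 2 := by linarith
    have h2 : (r + R) / 2 < R := by linarith
    obtain ⟨M', hM'⟩ := sep_dd (G := G) (hT _) (hT' _) M h2
    obtain ⟨K, hK⟩ := ih (E × F →L[ℝ] G) M' r ((r + R) / 2) h1
    refine ⟨K, fun f a b h => ?_⟩
    obtain ⟨s1, s2⟩ := hM' f a b h
    obtain ⟨t1, t2⟩ := hK (dd f) a b s1
    have e : ∀ p ∈ ball (a, b) ((r + R) / 2), fderiv ℝ f p = dd f p := fun p hp => (s2 p hp).fderiv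
    have e' : ∀ p ∈ ball (a, b) r, fderiv ℝ f =ᶠ[𝓝 p] dd f := fun p hp => by
      filter_upwards [isOpen_ball.mem_nhds (ball_subset_ball h1.le hp)] with q hq using e q hq
    refine ⟨?_, fun p hp => ?_⟩
    · rw [Nat.cast_succ, contDiffOn_succ_iff_fderiv_of_isOpen isOpen_ball]
      refine ⟨fun p hp => (s2 p (ball_subset_ball h1.le hp)).differentiableAt.differentiableWithinAt,
        fun h => absurd h (by simp), ?_⟩
      exact t1.congr fun p hp => e p (ball_subset_ball h1.le hp)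
    · rw [← norm_iteratedFDeriv_fderiv,
        (Filter.EventuallyEq.iteratedFDeriv (𝕜 := ℝ) (e' p hp) n).eq_of_nhds]
      exact t2 p hp

/-- separately smooth with uniform bounds implies jointly smooth with uniform bounds -/
theorem joint_of_tele (hT : ∀ G : Type u, ∀ [NormedAddCommGroup G] [NormedSpace ℝ G]
      [CompleteSpace G], Tele E G)
    (hT' : ∀ G : Type u, ∀ [NormedAddCommGroup G] [NormedSpace ℝ G] [CompleteSpace G], Tele F G)
    (G : Type u) [NormedAddCommGroup G] [NormedSpace ℝ G] [CompleteSpace G]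
    (M : ℕ → ℝ) {r R : ℝ} (hr : r < R) : ∃ K : ℕ → ℝ, ∀ (f : E × F → G) (a : E) (b : F),
      Sep f a b R M → Bd f (a, b) r K ∧ ContDiffOn ℝ ∞ f (ball (a, b) R) := by
  choose K hK using fun n => joint_n hT hT' n G M r R hr
  refine ⟨K, fun f a b h => ⟨⟨?_, fun k p hp => (hK k f a b h).2 p hp⟩, ?_⟩⟩
  · rw [contDiffOn_infty]
    exact fun n => (hK n f a b h).1
  · rw [contDiffOn_infty]
    intro n p hp
    have hp' : dist p (a, b) < R := hp
    obtain ⟨ρ, h1, h2⟩ := exists_between hp'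
    obtain ⟨K', hK'⟩ := joint_n hT hT' n G M ρ R h2
    exact ((hK' f a b h).1.contDiffAt (isOpen_ball.mem_nhds h1)).contDiffWithinAt

/-- `Tele` from 558's theorem -/
theorem tele (E G : Type u) [NormedAddCommGroup E] [NormedSpace ℝ E] [NormedAddCommGroup G]
    [NormedSpace ℝ G] [CompleteSpace G] : Tele E G := by
  intro M C t₀ r R ht hr
  obtain ⟨K, hK⟩ := H558.Tele.tele (E := E) (F := G) M (C := C) (θ := 1) (p := 1) one_pos
    zero_le_one ht hr
  refine ⟨K, fun Y c h => ?_⟩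
  obtain ⟨h1, h2⟩ := hK Y c fun t htt => by
    obtain ⟨Φ, hΦ, hd⟩ := h t htt
    refine ⟨Φ, hΦ.1, fun k x hx => ?_, fun x hx => ?_⟩
    · rw [Real.rpow_neg htt.1.le, Real.rpow_one]
      exact hΦ.2 k x hx
    · rw [Real.rpow_one]
      exact hd x hx
  exact ⟨h1.mono (ball_subset_ball hr.le), h2⟩

/-- **JOINT**: separately smooth with uniform bounds implies jointly smooth with uniform bounds.
-/
theorem joint' (G : Type u) [NormedAddCommGroup G] [NormedSpace ℝ G] [CompleteSpace G]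
    (M : ℕ → ℝ) {r R : ℝ} (hr : r < R) : ∃ K : ℕ → ℝ, ∀ (f : E × F → G) (a : E) (b : F),
      Sep f a b R M → Bd f (a, b) r K ∧ ContDiffOn ℝ ∞ f (ball (a, b) R) :=
  joint_of_tele (fun G => tele E G) (fun G => tele F G) G M hr

/-- **JOINT**, without the abbreviations. -/
theorem joint {G : Type u} [NormedAddCommGroup G] [NormedSpace ℝ G] [CompleteSpace G]
    (M : ℕ → ℝ) {r R : ℝ} (hr : r < R) : ∃ K : ℕ → ℝ, ∀ (f : E × F → G) (a : E) (b : F),
      (∀ y ∈ ball b R, ContDiffOn ℝ ∞ (fun x => f (x, y)) (ball a R) ∧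
        ∀ k, ∀ x ∈ ball a R, ‖iteratedFDeriv ℝ k (fun x => f (x, y)) x‖ ≤ M k) →
      (∀ x ∈ ball a R, ContDiffOn ℝ ∞ (fun y => f (x, y)) (ball b R) ∧
        ∀ k, ∀ y ∈ ball b R, ‖iteratedFDeriv ℝ k (fun y => f (x, y)) y‖ ≤ M k) →
      ContDiffOn ℝ ∞ f (ball (a, b) R) ∧
        ∀ k, ∀ p ∈ ball (a, b) r, ‖iteratedFDeriv ℝ k f p‖ ≤ K k := by
  obtain ⟨K, hK⟩ := joint' (E := E) (F := F) G M hr
  refine ⟨K, fun f a b h1 h2 => ?_⟩
  obtain ⟨h3, h4⟩ := hK f a b ⟨fun y hy => h1 y hy, fun x hx => h2 x hx⟩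
  exact ⟨h4, h3.2⟩

end main1

end Vale.Agent.P207.H547.Joint
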